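import Vale.Agent.P224.Upper

namespace Vale.Agent.Results.P224.CliffordMin

open Vale.Agent.P224

/-- Exact determination of the Solomon-Yau constant `a_m = min_{1 ≤ k < m} Vol(C_{k,m-k})`:
the minimum is attained exactly at the balanced splits `k = ⌊m/2⌋` and `k = m - ⌊m/2⌋`, the
Clifford volumes strictly decrease as `k` increases towards `m/2`, and `a_m < 2 |S^m|`. -/
theorem result (m : ℕ) (hm : 2 ≤ m) :
    IsLeast {v : ℝ | ∃ k : ℕ, 1 ≤ k ∧ k < m ∧ v = cliffordVol m k} (cliffordVol m (m / 2)) ∧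
    (∀ k : ℕ, 1 ≤ k → k < m →
      (cliffordVol m k = cliffordVol m (m / 2) ↔ k = m / 2 ∨ k = m - m / 2)) ∧
    (∀ k : ℕ, 1 ≤ k → 2 * k + 2 ≤ m → cliffordVol m (k + 1) < cliffordVol m k) ∧
    cliffordVol m (m / 2) < 2 * sphereVol m := by
  have h1 : 1 ≤ m / 2 := by omega
  have h2 : m / 2 < m := by omega
  have hmin : ∀ k : ℕ, 1 ≤ k → k < m → cliffordVol m (m / 2) ≤ cliffordVol m k := by
    intro k hk hkm
    rcases cliffordVol_min m k hk hkm with (h | h) | h
    · rw [h]
    · rw [h, cliffordVol_symm m (m / 2) h1 h2]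
    · exact h.le
  refine ⟨⟨⟨m / 2, h1, h2, rfl⟩, ?_⟩, ?_, fun k hk hkm => cliffordVol_step m k hk hkm, ?_⟩
  · rintro v ⟨k, hk, hkm, rfl⟩
    exact hmin k hk hkm
  · intro k hk hkm
    constructor
    · intro h
      rcases cliffordVol_min m k hk hkm with h' | h'
      · exact h'
      · exact absurd h h'.ne'
    · rintro (h | h)
      · rw [h]
      · rw [h, cliffordVol_symm m (m / 2) h1 h2]
  · exact lt_of_le_of_lt (hmin 1 le_rfl (by omega)) (cliffordVol_one_lt m hm)

end Vale.Agent.Results.P224.CliffordMin
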